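import Vale.Agent.P088.R2.H794.B.Spec2

/-!
# P088: row B_CC, two metrics, each one near a constant metric
-/

open MeasureTheory Set Filter Topology
open scoped ContDiff Matrix

noncomputable section

namespace Vale.Agent.P088.HY.Bd

open Vale.Agent.P088.LR Vale.Agent.P088.LR.B Vale.Agent.P088.LR.CF Vale.Agent.P088.H639

variable {n : ℕ}

lemma isOpen_Om169 {ρ : V n → ℝ} (h : SDom ρ) : IsOpen (Om ρ) :=
  isOpen_lt continuous_const h.sm.continuous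

lemma bdd_Om169 {ρ : V n → ℝ} (h : SDom ρ) : Bornology.IsBounded (Om ρ) :=
  h.bd.subset fun x (hx : 0 < ρ x) => (show 0 ≤ ρ x from hx.le)

/-- If `{ρ > 0}` is empty then so is `{ρ = 0}`. -/
lemma Om_empty169 {ρ : V n → ℝ} (h : SDom ρ) (he : ¬ (Om ρ).Nonempty) (x : V n) : ¬ 0 ≤ ρ x := by
  intro hx
  have hle : ∀ y, ρ y ≤ 0 := fun y => not_lt.1 fun hy => he ⟨y, hy⟩
  have h0 : ρ x = 0 := le_antisymm (hle x) hx
  refine h.nz x h0 ?_
  have hm : IsLocalMax ρ x := Eventually.of_forall fun y => by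
    show ρ y ≤ ρ x
    rw [h0]; exact hle y
  exact hm.fderiv_eq_zero

lemma Jm_id169 (x : V n) : Jm (fun y : V n => y) x = 1 := by
  ext i j
  simp [Jm, pd, Matrix.one_apply, Pi.single_apply]

lemma ifd_add_const169 {f : V n → ℝ} (c : ℝ) {l : ℕ} (hl : l ≠ 0) {y : V n}
    (hf : ContDiffAt ℝ ∞ f y) :
    iteratedFDeriv ℝ l (fun y => f y - c) y = iteratedFDeriv ℝ l f y := by
  have h1 := iteratedFDeriv_sub_apply (𝕜 := ℝ) (i := l) (x := y) (f := f) (g := fun _ => c)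
    (hf.of_le (by exact_mod_cast le_top)) contDiffAt_const
  have h2 : (f - fun _ => c) = fun y => f y - c := rfl
  rw [h2] at h1
  rw [h1, iteratedFDeriv_const_of_ne hl]
  simp

lemma Cl_mono169 {F : Type*} [NormedAddCommGroup F] [NormedSpace ℝ F] {k : ℕ} {ε ε' : ℝ}
    {f : V n → F} (h : Cl k ε f) (he : ε ≤ ε') : Cl k ε' f :=
  fun l hl x => (h l hl x).trans he

/-- Two constants: `C^k`-near `c` implies `C^k`-near `c'`. -/
lemma Cl_const169 {k : ℕ} {ε η : ℝ} {f : V n → ℝ} (hf : ContDiff ℝ ∞ f) {c c' : ℝ} (hη : 0 ≤ η)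
    (h : Cl k ε (fun x => f x - c)) (hc : |c' - c| ≤ η) : Cl k (ε + η) (fun x => f x - c') := by
  intro l hl x
  rcases eq_or_ne l 0 with rfl | h0
  · have h1 := h 0 hl x
    rw [norm_iteratedFDeriv_zero, Real.norm_eq_abs] at h1 ⊢
    calc |f x - c'| = |(f x - c) - (c' - c)| := by ring_nf
      _ ≤ |f x - c| + |c' - c| := abs_sub _ _
      _ ≤ ε + η := add_le_add h1 hc
  · have h1 := h l hl x
    rw [ifd_add_const169 _ h0 hf.contDiffAt] at h1 ⊢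
    linarith

theorem rowBCC (hU : RowBUN) (hL : RowBLIN) : RowBCC := by
  intro n hn ρ hρ B hB
  by_cases hne : (Om ρ).Nonempty
  · obtain ⟨k, ε₀, hε₀, h₀⟩ := hU n hn ρ hρ B hB
    obtain ⟨ε₁, hε₁, h₁⟩ := hL n hn (Om ρ) (isOpen_Om169 hρ) (bdd_Om169 hρ) hne B (ε₀ / 2) hB
      (half_pos hε₀)
    refine ⟨k, min ε₁ (ε₀ / 2), lt_min hε₁ (half_pos hε₀), ?_⟩
    intro G₁ G₂ hG₁ hG₂ g₁ g₂ s₁ s₂ p₁ p₂ c₁ c₂ hSE
    have hz : ∀ {f : V n → ℝ} (_ : Cl k (min ε₁ (ε₀ / 2)) f) (x : V n), |f x| ≤ ε₁ := by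
      intro f hf x
      have h := hf 0 (Nat.zero_le _) x
      rw [norm_iteratedFDeriv_zero, Real.norm_eq_abs] at h
      exact h.trans (min_le_left _ _)
    have hη := h₁ G₁ G₂ hG₁ hG₂ g₁ g₂ s₁ s₂ p₁ p₂ (fun x _ i j => hz (c₁ i j) x)
      (fun x _ i j => hz (c₂ i j) x) hSE
    refine h₀ G₁ hG₁ g₁ g₂ s₁ s₂ p₁ p₂
      (fun i j => Cl_mono169 (c₁ i j) ((min_le_right _ _).trans (by linarith))) ?_ hSE
    intro i j
    refine Cl_mono169 (Cl_const169 (s₂ i j) (half_pos hε₀).le (c₂ i j) (hη i j)) ?_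
    have := min_le_right ε₁ (ε₀ / 2)
    linarith
  · refine ⟨0, 1, one_pos, ?_⟩
    intro G₁ G₂ hG₁ hG₂ g₁ g₂ s₁ s₂ p₁ p₂ c₁ c₂ hSE
    refine ⟨fun x => x, fun x => x, contDiff_id, contDiff_id, fun _ => rfl, fun _ => rfl,
      fun _ _ => rfl, fun _ => Iff.rfl, fun x => ?_, fun x hx => ?_⟩
    · rw [Jm_id169, Matrix.det_one]
      exact one_pos
    · exact absurd hx (Om_empty169 hρ hne x)

end Vale.Agent.P088.HY.Bd
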