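import Vale.Agent.P088.R2.H794.B.Spec2
import Vale.Agent.P088.R2.H794.Mat
import Vale.Agent.P088.H757.Weak
import Vale.Agent.P088.H442.Top

/-!
# P088: row B_LIN, the energies of the linear functions

For a metric near a constant one the energy of a linear function is near that of the constant
metric, so equal energies give equal limits; compactness.
-/

open MeasureTheory Set Filter Topology
open scoped ContDiff Matrix

noncomputable section

namespace Vale.Agent.P088.HY.Bd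

open Vale.Agent.P088.LR Vale.Agent.P088.LR.B Vale.Agent.P088.LR.CF Vale.Agent.P088.H639

variable {n : ℕ}

/-- The quadratic form of a matrix. -/
def qf169 (S : Matrix (Fin n) (Fin n) ℝ) (v : V n) : ℝ := ∑ i, ∑ j, S i j * v i * v j

lemma qf_dot169 (S : Matrix (Fin n) (Fin n) ℝ) (v : V n) : qf169 S v = v ⬝ᵥ S *ᵥ v := by
  simp only [qf169, dotProduct, Matrix.mulVec, Finset.mul_sum]
  refine Finset.sum_congr rfl fun i _ => Finset.sum_congr rfl fun j _ => ?_
  ring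

lemma qf_nonneg169 {S : Matrix (Fin n) (Fin n) ℝ} (hS : S.PosSemidef) (v : V n) :
    0 ≤ qf169 S v := by
  rw [qf_dot169]
  exact hS.dotProduct_mulVec_nonneg v

lemma qf_coer169 {S : Matrix (Fin n) (Fin n) ℝ} (hS : S.PosDef) :
    ∃ C > 0, ∀ v : V n, ∑ i, v i ^ 2 ≤ C * qf169 S v := by
  obtain ⟨R, hR, hd⟩ := H794.posDef_root hS
  refine ⟨∑ i, ∑ k, R⁻¹ i k ^ 2 + 1, by positivity, fun v => ?_⟩
  have h1 : qf169 S v = ∑ k, (R *ᵥ v) k ^ 2 := by
    rw [qf_dot169, ← hR, ← Matrix.mulVec_mulVec, Matrix.dotProduct_mulVec,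
      Matrix.vecMul_transpose]
    simp only [dotProduct, ← pow_two]
  have h2 : R⁻¹ *ᵥ (R *ᵥ v) = v := by
    rw [Matrix.mulVec_mulVec, Matrix.nonsing_inv_mul R hd.isUnit, Matrix.one_mulVec]
  have h3 : ∀ i, v i ^ 2 ≤ (∑ k, R⁻¹ i k ^ 2) * ∑ k, (R *ᵥ v) k ^ 2 := by
    intro i
    conv_lhs => rw [← h2]
    exact Finset.sum_mul_sq_le_sq_mul_sq Finset.univ (fun k => R⁻¹ i k) (fun k => (R *ᵥ v) k)
  have h4 : 0 ≤ ∑ k, (R *ᵥ v) k ^ 2 := Finset.sum_nonneg fun _ _ => sq_nonneg _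
  calc ∑ i, v i ^ 2 ≤ ∑ i, (∑ k, R⁻¹ i k ^ 2) * ∑ k, (R *ᵥ v) k ^ 2 :=
        Finset.sum_le_sum fun i _ => h3 i
    _ = (∑ i, ∑ k, R⁻¹ i k ^ 2) * ∑ k, (R *ᵥ v) k ^ 2 := by rw [Finset.sum_mul]
    _ ≤ (∑ i, ∑ k, R⁻¹ i k ^ 2 + 1) * qf169 S v := by
        rw [h1]
        nlinarith

lemma qf_pert169 {S S' : Matrix (Fin n) (Fin n) ℝ} {δ : ℝ} (h : ∀ i j, |S' i j - S i j| ≤ δ)
    (v : V n) : |qf169 S' v - qf169 S v| ≤ δ * n * ∑ i, v i ^ 2 := by
  have e : qf169 S' v - qf169 S v = ∑ i, ∑ j, (S' i j - S i j) * v i * v j := by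
    simp only [qf169, ← Finset.sum_sub_distrib]
    refine Finset.sum_congr rfl fun i _ => Finset.sum_congr rfl fun j _ => ?_
    ring
  rw [e]
  have hδ : ∀ i j : Fin n, |(S' i j - S i j) * v i * v j| ≤ δ * ((v i ^ 2 + v j ^ 2) / 2) := by
    intro i j
    have h1 := h i j
    have h2 : 0 ≤ δ := (abs_nonneg _).trans h1
    rw [mul_assoc, abs_mul]
    refine mul_le_mul h1 ?_ (abs_nonneg _) h2
    rw [abs_mul]
    nlinarith [sq_nonneg (|v i| - |v j|), sq_abs (v i), sq_abs (v j)]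
  calc |∑ i, ∑ j, (S' i j - S i j) * v i * v j|
      ≤ ∑ i, ∑ j, |(S' i j - S i j) * v i * v j| :=
        (Finset.abs_sum_le_sum_abs _ _).trans
          (Finset.sum_le_sum fun i _ => Finset.abs_sum_le_sum_abs _ _)
    _ ≤ ∑ i : Fin n, ∑ j : Fin n, δ * ((v i ^ 2 + v j ^ 2) / 2) :=
        Finset.sum_le_sum fun i _ => Finset.sum_le_sum fun j _ => hδ i j
    _ = δ * n * ∑ i, v i ^ 2 := by
        simp only [← Finset.mul_sum, ← Finset.sum_div, Finset.sum_add_distrib, Finset.sum_const,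
          Finset.card_univ, Fintype.card_fin, nsmul_eq_mul]
        ring

/-- Linear functions. -/
def lf169 (ξ : V n) (x : V n) : ℝ := ∑ j, ξ j * x j

lemma lf_sm169 (ξ : V n) : ContDiff ℝ ∞ (lf169 ξ) := by
  unfold lf169
  fun_prop

lemma pd_lf169 (ξ : V n) (i : Fin n) (x : V n) : pd i (lf169 ξ) x = ξ i := by
  have h : HasFDerivAt (lf169 ξ)
      (∑ j, ξ j • (ContinuousLinearMap.proj (R := ℝ) (φ := fun _ : Fin n => ℝ) j)) x := by
    unfold lf169
    exact HasFDerivAt.fun_sum fun j _ => (hasFDerivAt_apply j x).const_mul (ξ j)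
  unfold pd
  rw [h.fderiv]
  simp [Pi.single_apply]

lemma sl_lf169 {Ω : Set (V n)} (hO : IsOpen Ω) (hb : Bornology.IsBounded Ω)
    {S : Matrix (Fin n) (Fin n) ℝ} (hS : S.IsSymm) (ξ : V n) : Sl Ω (fun _ => S) (lf169 ξ) := by
  refine Sl_of_dv weak hO hb (s := fun _ => S) (fun i j => contDiff_const) (fun _ => hS)
    (lf_sm169 ξ) ?_
  intro x _
  unfold dv
  refine Finset.sum_eq_zero fun i _ => ?_
  have e : (fun y => ∑ j, ((S i j : ℝ) : ℂ) * pd j (oc (lf169 ξ)) y) =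
      fun _ => ∑ j, ((S i j : ℝ) : ℂ) * (ξ j : ℂ) := by
    funext y
    refine Finset.sum_congr rfl fun j _ => ?_
    rw [pd_oc (lf_sm169 ξ), pd_lf169]
  rw [e]
  unfold pd
  simp

/-- The energy of a linear function, tensor near a constant one. -/
lemma en_near169 {Ω : Set (V n)} (hO : IsOpen Ω) (hb : Bornology.IsBounded Ω)
    {S : Matrix (Fin n) (Fin n) ℝ} (hS : S.PosDef) {s : MF n} (hs : SmM s)
    (hsp : ∀ x, (s x).PosDef) {c : ℝ} (h1 : c ≤ 1)
    (hc : ∀ x ∈ Ω, ∀ v : V n, |qf169 (s x) v - qf169 S v| ≤ c * qf169 S v) (ξ : V n) :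
    |En Ω s (lf169 ξ) - volume.real Ω * qf169 S ξ| ≤ c * (volume.real Ω * qf169 S ξ) := by
  have hSs : S.IsSymm := by
    have h2 := hS.1
    rwa [Matrix.IsHermitian, Matrix.conjTranspose_eq_transpose_of_trivial] at h2
  have hsc : ∀ i j, Continuous fun x => s x i j := fun i j => (hs i j).continuous
  have hSc : ∀ i j, Continuous fun _ : V n => S i j := fun i j => continuous_const
  have hW := sl_lf169 hO hb hSs ξ
  have hE : En Ω (fun _ => S) (lf169 ξ) = volume.real Ω * qf169 S ξ := by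
    rw [En_sol hb hSc (fun _ => hSs) (fun _ => hS.posSemidef) hW]
    unfold rb
    simp only [pd_lf169]
    rw [setIntegral_const, smul_eq_mul]
    rfl
  have hrb : ∀ u : V n → ℝ, ContDiff ℝ ∞ u →
      (1 - c) * rb Ω (fun _ => S) u u ≤ rb Ω s u u ∧
        rb Ω s u u ≤ (1 + c) * rb Ω (fun _ => S) u u := by
    intro u hu
    have i1 := rb_integrable hb hsc hu hu
    have i2 := rb_integrable hb hSc hu hu
    constructor
    · unfold rb
      rw [← integral_const_mul]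
      refine setIntegral_mono_on (i2.const_mul _) i1 hO.measurableSet fun x hx => ?_
      have h := hc x hx (fun i => pd i u x)
      rw [abs_le] at h
      simp only [qf169] at h
      linarith [h.1]
    · unfold rb
      rw [← integral_const_mul]
      refine setIntegral_mono_on i1 (i2.const_mul _) hO.measurableSet fun x hx => ?_
      have h := hc x hx (fun i => pd i u x)
      rw [abs_le] at h
      simp only [qf169] at h
      linarith [h.2]
  have hlow : (1 - c) * (volume.real Ω * qf169 S ξ) ≤ En Ω s (lf169 ξ) := by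
    refine le_csInf ⟨_, lf169 ξ, lf_sm169 ξ, fun _ _ => rfl, rfl⟩ ?_
    rintro e ⟨u, hu, huf, rfl⟩
    refine le_trans ?_ (hrb u hu).1
    refine mul_le_mul_of_nonneg_left ?_ (by linarith)
    rw [← hE]
    exact csInf_le (En_bdd (fun _ => hS.posSemidef) _) ⟨u, hu, huf, rfl⟩
  have hupp : En Ω s (lf169 ξ) ≤ (1 + c) * (volume.real Ω * qf169 S ξ) := by
    refine (csInf_le (En_bdd (fun x => (hsp x).posSemidef) _)
      ⟨lf169 ξ, lf_sm169 ξ, fun _ _ => rfl, rfl⟩).trans ?_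
    refine ((hrb _ (lf_sm169 ξ)).2).trans (le_of_eq ?_)
    rw [← hE, En_sol hb hSc (fun _ => hSs) (fun _ => hS.posSemidef) hW]
  rw [abs_le]
  constructor <;> linarith

/-- Continuity of `G ↦ √(det G) G⁻¹`. -/
lemma sg_near169 {G : Matrix (Fin n) (Fin n) ℝ} (hG : G.PosDef) {δ : ℝ} (hδ : 0 < δ) :
    ∃ r > 0, ∀ H : Matrix (Fin n) (Fin n) ℝ, (∀ i j, |H i j - G i j| < r) →
      ∀ i j, |(√H.det • H⁻¹) i j - (√G.det • G⁻¹) i j| < δ := by
  let F : (Fin n → Fin n → ℝ) → (Fin n → Fin n → ℝ) := fun H i j =>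
    √(Matrix.of H).det * (((Matrix.of H).det)⁻¹ * (Matrix.of H).adjugate i j)
  have hF : ∀ H : Matrix (Fin n) (Fin n) ℝ, ∀ i j, F H i j = (√H.det • H⁻¹) i j := by
    intro H i j
    rw [Matrix.smul_apply, Matrix.inv_def, Matrix.smul_apply, smul_eq_mul, smul_eq_mul,
      Ring.inverse_eq_inv']
    rfl
  have hd : Continuous fun H : Fin n → Fin n → ℝ => (Matrix.of H).det :=
    Continuous.matrix_det continuous_id
  have ha : Continuous fun H : Fin n → Fin n → ℝ => (Matrix.of H).adjugate :=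
    Continuous.matrix_adjugate continuous_id
  have hc : ContinuousAt F G := by
    refine continuousAt_pi.2 fun i => continuousAt_pi.2 fun j => ?_
    refine (Real.continuous_sqrt.comp hd).continuousAt.mul ((hd.continuousAt.inv₀ ?_).mul
      (ha.matrix_elem i j).continuousAt)
    exact hG.det_pos.ne'
  obtain ⟨r, hr, h⟩ := Metric.continuousAt_iff.1 hc δ hδ
  refine ⟨r, hr, fun H hH i j => ?_⟩
  have h1 : dist (α := Fin n → Fin n → ℝ) H G < r :=
    (dist_pi_lt_iff hr).2 fun i => (dist_pi_lt_iff hr).2 fun j => by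
      rw [Real.dist_eq]; exact hH i j
  have h2 := h h1
  rw [← hF H, ← hF G, ← Real.dist_eq]
  exact ((dist_le_pi_dist _ _ j).trans (dist_le_pi_dist _ _ i)).trans_lt h2

/-- The energy of a linear function, metric near a constant one. -/
lemma en_lim169 {Ω : Set (V n)} (hO : IsOpen Ω) (hb : Bornology.IsBounded Ω)
    {G : Matrix (Fin n) (Fin n) ℝ} (hG : G.PosDef) (ξ : V n) {η : ℝ} (hη : 0 < η) :
    ∃ r > 0, ∀ g : MF n, SmM g → (∀ x, (g x).PosDef) →
      (∀ x ∈ Ω, ∀ i j, |g x i j - G i j| < r) →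
      |En Ω (sg g) (lf169 ξ) - volume.real Ω * qf169 (√G.det • G⁻¹) ξ| ≤ η := by
  set S : Matrix (Fin n) (Fin n) ℝ := √G.det • G⁻¹ with hSdef
  have hS : S.PosDef := hG.inv.smul (Real.sqrt_pos.2 hG.det_pos)
  obtain ⟨C, hC, hcoer⟩ := qf_coer169 hS
  set Q : ℝ := volume.real Ω * qf169 S ξ with hQ
  have hQ0 : 0 ≤ Q := mul_nonneg measureReal_nonneg (qf_nonneg169 hS.posSemidef ξ)
  set c : ℝ := min 1 (η / (Q + 1)) with hcdef
  have hc0 : 0 < c := lt_min one_pos (by positivity)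
  obtain ⟨r, hr, h⟩ := sg_near169 hG (δ := c / (C * (n + 1))) (by positivity)
  refine ⟨r, hr, fun g hg hp hgr => ?_⟩
  have hnear : ∀ x ∈ Ω, ∀ v : V n, |qf169 (sg g x) v - qf169 S v| ≤ c * qf169 S v := by
    intro x hx v
    have h1 := qf_pert169 (S := S) (S' := sg g x) (δ := c / (C * (n + 1)))
      (fun i j => (h (g x) (hgr x hx) i j).le) v
    refine h1.trans ?_
    have h2 := hcoer v
    have h3 : 0 ≤ ∑ i, v i ^ 2 := Finset.sum_nonneg fun _ _ => sq_nonneg _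
    have h4 : c / (C * (n + 1)) * n ≤ c / C := by
      rw [div_mul_eq_mul_div, div_le_div_iff₀ (by positivity) hC]
      have : (0 : ℝ) ≤ n := Nat.cast_nonneg n
      nlinarith [mul_pos hc0 hC]
    calc c / (C * (n + 1)) * n * ∑ i, v i ^ 2 ≤ c / C * ∑ i, v i ^ 2 :=
          mul_le_mul_of_nonneg_right h4 h3
      _ ≤ c / C * (C * qf169 S v) := mul_le_mul_of_nonneg_left h2 (by positivity)
      _ = c * qf169 S v := by field_simp
  refine (en_near169 hO hb hS (LR.H442.smM_sg442 hg hp)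
    (fun x => (hp x).inv.smul (Real.sqrt_pos.2 (hp x).det_pos)) (min_le_left _ _) hnear ξ).trans ?_
  calc c * (volume.real Ω * qf169 S ξ) ≤ η / (Q + 1) * Q := by
        rw [← hQ]
        exact mul_le_mul_of_nonneg_right (min_le_right _ _) hQ0
    _ ≤ η := by
        rw [div_mul_eq_mul_div, div_le_iff₀ (by positivity)]
        nlinarith

/-- Symmetric matrices with the same quadratic form. -/
lemma qf_inj169 {S T : Matrix (Fin n) (Fin n) ℝ} (hS : S.IsSymm) (hT : T.IsSymm)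
    (h : ∀ ξ, qf169 S ξ = qf169 T ξ) : S = T := by
  have key : ∀ (A : Matrix (Fin n) (Fin n) ℝ) (_ : A.IsSymm) (i j : Fin n),
      qf169 A (Pi.single i 1 + Pi.single j 1) =
        qf169 A (Pi.single i 1) + qf169 A (Pi.single j 1) + 2 * A i j := by
    intro A hA i j
    simp only [qf_dot169, Matrix.mulVec_add, add_dotProduct, dotProduct_add]
    have h1 : ∀ a b : Fin n, (Pi.single a (1 : ℝ) : V n) ⬝ᵥ A *ᵥ Pi.single b 1 = A a b := by
      intro a b
      simp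
    rw [h1, h1, h1, h1, hA.apply i j]
    ring
  ext i j
  have h1 := key S hS i j
  have h2 := key T hT i j
  rw [h, h, h] at h1
  linarith

lemma symm_of_posDef169 {G : Matrix (Fin n) (Fin n) ℝ} (hG : G.PosDef) : G.IsSymm := by
  have h2 := hG.1
  rwa [Matrix.IsHermitian, Matrix.conjTranspose_eq_transpose_of_trivial] at h2

/-- A limit of metrics in `CoG B`. -/
lemma CoG_lim169 {B : ℝ} (hB : 0 < B) {G : ℕ → Matrix (Fin n) (Fin n) ℝ}
    (h : ∀ m, CoG B (G m)) {H : Matrix (Fin n) (Fin n) ℝ}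
    (hl : ∀ i j, Tendsto (fun m => G m i j) atTop (𝓝 (H i j))) : H.PosDef := by
  have hdet : Tendsto (fun m => (G m).det) atTop (𝓝 H.det) := by
    have hd : Continuous fun H : Fin n → Fin n → ℝ => (Matrix.of H).det :=
      Continuous.matrix_det continuous_id
    have h1 : Tendsto (fun m => (fun i j => G m i j : Fin n → Fin n → ℝ)) atTop
        (𝓝 (fun i j => H i j)) :=
      tendsto_pi_nhds.2 fun i => tendsto_pi_nhds.2 fun j => hl i j
    exact (hd.tendsto _).comp h1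
  have hd0 : H.det ≠ 0 := by
    have h2 : B⁻¹ ≤ H.det := ge_of_tendsto hdet (Eventually.of_forall fun m => (h m).2.2)
    have h3 : 0 < B⁻¹ := inv_pos.2 hB
    exact (lt_of_lt_of_le h3 h2).ne'
  have hps : H.PosSemidef := by
    refine Matrix.PosSemidef.of_dotProduct_mulVec_nonneg ?_ fun v => ?_
    · rw [Matrix.IsHermitian, Matrix.conjTranspose_eq_transpose_of_trivial]
      ext i j
      rw [Matrix.transpose_apply]
      refine tendsto_nhds_unique (hl j i) ?_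
      refine (hl i j).congr fun m => ?_
      exact (symm_of_posDef169 (h m).1).apply j i
    · have h4 : Tendsto (fun m => qf169 (G m) v) atTop (𝓝 (qf169 H v)) := by
        unfold qf169
        exact tendsto_finsetSum _ fun i _ => tendsto_finsetSum _ fun j _ =>
          ((hl i j).mul_const _).mul_const _
      have h5 : 0 ≤ qf169 H v :=
        ge_of_tendsto h4 (Eventually.of_forall fun m => qf_nonneg169 (h m).1.posSemidef v)
      rw [qf_dot169] at h5
      exact h5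
  exact (hps.posDef_iff_det_ne_zero).2 hd0

theorem rowBLIN : RowBLIN := by
  intro n hn Ω hO hb hne B η hB hη
  by_contra hcon
  push Not at hcon
  have hm : ∀ m : ℕ, ∃ G₁ G₂ : Matrix (Fin n) (Fin n) ℝ, CoG B G₁ ∧ CoG B G₂ ∧
      ∃ g₁ g₂ : MF n, SmM g₁ ∧ SmM g₂ ∧ (∀ x, (g₁ x).PosDef) ∧ (∀ x, (g₂ x).PosDef) ∧
      (∀ x ∈ Ω, ∀ i j, |g₁ x i j - G₁ i j| ≤ 1 / ((m : ℝ) + 1)) ∧
      (∀ x ∈ Ω, ∀ i j, |g₂ x i j - G₂ i j| ≤ 1 / ((m : ℝ) + 1)) ∧ SE Ω (sg g₁) (sg g₂) ∧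
      ∃ i j, η < |G₁ i j - G₂ i j| := by
    intro m
    obtain ⟨G₁, G₂, c₁, c₂, g₁, g₂, s₁, s₂, p₁, p₂, n₁, n₂, hS, hij⟩ :=
      hcon (1 / ((m : ℝ) + 1)) (by positivity)
    exact ⟨G₁, G₂, c₁, c₂, g₁, g₂, s₁, s₂, p₁, p₂, n₁, n₂, hS, hij⟩
  choose G₁ G₂ c₁ c₂ g₁ g₂ s₁ s₂ p₁ p₂ n₁ n₂ hSE hij using hm
  -- compactness
  have hK : IsCompact (Set.pi univ fun _ : Fin n => Set.pi univ fun _ : Fin n =>
      Set.Icc (-B) B) := isCompact_univ_pi fun _ => isCompact_univ_pi fun _ => isCompact_Icc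
  have hmem : ∀ m, ((fun i j => G₁ m i j : Fin n → Fin n → ℝ),
      (fun i j => G₂ m i j : Fin n → Fin n → ℝ)) ∈
      (Set.pi univ fun _ : Fin n => Set.pi univ fun _ : Fin n => Set.Icc (-B) B) ×ˢ
      (Set.pi univ fun _ : Fin n => Set.pi univ fun _ : Fin n => Set.Icc (-B) B) := fun m =>
    ⟨fun i _ j _ => abs_le.1 ((c₁ m).2.1 i j), fun i _ j _ => abs_le.1 ((c₂ m).2.1 i j)⟩
  obtain ⟨⟨H₁, H₂⟩, _, φ, hφ, hlim⟩ := (hK.prod hK).tendsto_subseq hmem
  have hl₁ : ∀ i j, Tendsto (fun m => G₁ (φ m) i j) atTop (𝓝 (H₁ i j)) := fun i j =>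
    tendsto_pi_nhds.1 (tendsto_pi_nhds.1 ((continuous_fst.tendsto _).comp hlim) i) j
  have hl₂ : ∀ i j, Tendsto (fun m => G₂ (φ m) i j) atTop (𝓝 (H₂ i j)) := fun i j =>
    tendsto_pi_nhds.1 (tendsto_pi_nhds.1 ((continuous_snd.tendsto _).comp hlim) i) j
  have hP₁ : (Matrix.of H₁).PosDef := CoG_lim169 hB (fun m => c₁ (φ m)) hl₁
  have hP₂ : (Matrix.of H₂).PosDef := CoG_lim169 hB (fun m => c₂ (φ m)) hl₂
  have h1m : Tendsto (fun m : ℕ => 1 / ((φ m : ℝ) + 1)) atTop (𝓝 0) :=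
    tendsto_one_div_add_atTop_nhds_zero_nat.comp hφ.tendsto_atTop
  -- the metrics are near the limits
  have hnr : ∀ (r : ℝ), 0 < r → ∀ (G : ℕ → Matrix (Fin n) (Fin n) ℝ) (g : ℕ → MF n)
      (H : Fin n → Fin n → ℝ), (∀ m, ∀ x ∈ Ω, ∀ i j, |g m x i j - G m i j| ≤ 1 / ((m : ℝ) + 1)) →
      (∀ i j, Tendsto (fun m => G (φ m) i j) atTop (𝓝 (H i j))) →
      ∀ᶠ m in atTop, ∀ x ∈ Ω, ∀ i j, |g (φ m) x i j - Matrix.of H i j| < r := by
    intro r hr G g H hg hl
    have e1 : ∀ᶠ m in atTop, 1 / ((φ m : ℝ) + 1) < r / 2 := h1m.eventually_lt_const (half_pos hr)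
    have e2 : ∀ᶠ m in atTop, ∀ i j, |G (φ m) i j - H i j| < r / 2 := by
      refine eventually_all.2 fun i => eventually_all.2 fun j => ?_
      have := (Metric.tendsto_nhds.1 (hl i j)) (r / 2) (half_pos hr)
      filter_upwards [this] with m hm
      rwa [Real.dist_eq] at hm
    filter_upwards [e1, e2] with m h1 h2 x hx i j
    have h3 := hg (φ m) x hx i j
    have h4 := h2 i j
    rw [Matrix.of_apply]
    calc |g (φ m) x i j - H i j| = |(g (φ m) x i j - G (φ m) i j) + (G (φ m) i j - H i j)| := by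
          ring_nf
      _ ≤ |g (φ m) x i j - G (φ m) i j| + |G (φ m) i j - H i j| := abs_add_le _ _
      _ < r := by linarith
  -- the energies of the linear functions agree
  have hvol : 0 < volume.real Ω := by
    rw [measureReal_def]
    exact ENNReal.toReal_pos (hO.measure_pos volume hne).ne' hb.measure_lt_top.ne
  set S₁ := √(Matrix.of H₁).det • (Matrix.of H₁)⁻¹ with hS₁
  set S₂ := √(Matrix.of H₂).det • (Matrix.of H₂)⁻¹ with hS₂
  have hq : ∀ ξ : V n, qf169 S₁ ξ = qf169 S₂ ξ := by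
    intro ξ
    have hle : ∀ θ > 0, |volume.real Ω * qf169 S₁ ξ - volume.real Ω * qf169 S₂ ξ| ≤ θ := by
      intro θ hθ
      obtain ⟨r₁, hr₁, h₁⟩ := en_lim169 hO hb hP₁ ξ (half_pos hθ)
      obtain ⟨r₂, hr₂, h₂⟩ := en_lim169 hO hb hP₂ ξ (half_pos hθ)
      obtain ⟨m, hm₁, hm₂⟩ := ((hnr r₁ hr₁ G₁ g₁ H₁ n₁ hl₁).and
        (hnr r₂ hr₂ G₂ g₂ H₂ n₂ hl₂)).exists
      have k₁ := h₁ (g₁ (φ m)) (s₁ _) (p₁ _) hm₁
      have k₂ := h₂ (g₂ (φ m)) (s₂ _) (p₂ _) hm₂
      rw [← hSE (φ m) (lf169 ξ) (lf_sm169 ξ)] at k₂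
      rw [abs_sub_comm] at k₁
      have := abs_sub_le (volume.real Ω * qf169 S₁ ξ) (En Ω (sg (g₁ (φ m))) (lf169 ξ))
        (volume.real Ω * qf169 S₂ ξ)
      linarith
    have h0 : |volume.real Ω * qf169 S₁ ξ - volume.real Ω * qf169 S₂ ξ| ≤ 0 :=
      le_of_forall_pos_le_add fun θ hθ => by rw [zero_add]; exact hle θ hθ
    have h3 := sub_eq_zero.1 (abs_nonpos_iff.1 h0)
    exact mul_left_cancel₀ hvol.ne' h3
  have hSS : S₁ = S₂ := qf_inj169
    (symm_of_posDef169 (hP₁.inv.smul (Real.sqrt_pos.2 hP₁.det_pos)))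
    (symm_of_posDef169 (hP₂.inv.smul (Real.sqrt_pos.2 hP₂.det_pos))) hq
  have hHH : Matrix.of H₁ = Matrix.of H₂ := H794.sg_inj794 hn hP₁ hP₂ hSS
  -- contradiction
  have hlast : ∀ᶠ m in atTop, ∀ i j, |G₁ (φ m) i j - G₂ (φ m) i j| < η := by
    refine eventually_all.2 fun i => eventually_all.2 fun j => ?_
    have h1 := (hl₁ i j).sub (hl₂ i j)
    have h2 : H₁ i j - H₂ i j = 0 := by
      have := congrFun (congrFun hHH i) j
      simp only [Matrix.of_apply] at this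
      rw [this, sub_self]
    rw [h2] at h1
    have := (Metric.tendsto_nhds.1 h1) η hη
    filter_upwards [this] with m hm
    rwa [Real.dist_eq, sub_zero] at hm
  obtain ⟨m, hm⟩ := hlast.exists
  obtain ⟨i, j, h⟩ := hij (φ m)
  exact absurd h (not_lt.2 (hm i j).le)

end Vale.Agent.P088.HY.Bd
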