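import Vale.Agent.P088.R2.H794.B.Spec3
import Vale.Agent.P088.R2.H934.BSm

/-!
# P088: row B_SB, metrics on a small domain with bounds of every order

The scaled and cut-off metric `g(x₀) + χ(y) (g(x₀ + r y) - g(x₀))` has bounds of every order which
do not depend on `r ≤ 1`, and small oscillation.
-/

open MeasureTheory Set Filter Topology
open scoped ContDiff Matrix

noncomputable section

namespace Vale.Agent.P088.HY.Bd

open Vale.Agent.P088.LR Vale.Agent.P088.LR.B Vale.Agent.P088.LR.CF Vale.Agent.P088.H639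
  Vale.Agent.P088.R2.H934

variable {n : ℕ}

/-- Uniform continuity of the determinant. -/
lemma det_near169 (n : ℕ) {B : ℝ} (hB : 0 < B) : ∃ δ > 0, ∀ A E : Matrix (Fin n) (Fin n) ℝ,
    (∀ i j, |A i j| ≤ B) → B⁻¹ ≤ A.det → (∀ i j, |E i j| ≤ δ) → (2 * B)⁻¹ ≤ (A + E).det := by
  have hK : IsCompact (Set.pi univ fun _ : Fin n => Set.pi univ fun _ : Fin n =>
      Set.Icc (-(B + 1)) (B + 1)) :=
    isCompact_univ_pi fun _ => isCompact_univ_pi fun _ => isCompact_Icc
  have hd : Continuous fun H : Fin n → Fin n → ℝ => (Matrix.of H).det :=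
    Continuous.matrix_det continuous_id
  have hu := hK.uniformContinuousOn_of_continuous hd.continuousOn
  obtain ⟨δ, hδ, h⟩ := Metric.uniformContinuousOn_iff.1 hu (2 * B)⁻¹ (by positivity)
  refine ⟨min (δ / 2) 1, by positivity, fun A E hA hdet hE => ?_⟩
  have hA1 : ∀ i j, -(B + 1) ≤ A i j ∧ A i j ≤ B + 1 := fun i j => by
    have := abs_le.1 (hA i j)
    exact ⟨by linarith, by linarith⟩
  have hE1 : ∀ i j, -(B + 1) ≤ (A + E) i j ∧ (A + E) i j ≤ B + 1 := fun i j => by
    have h1 := abs_le.1 (hA i j)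
    have h2 := abs_le.1 ((hE i j).trans (min_le_right _ _))
    rw [Matrix.add_apply]
    exact ⟨by linarith, by linarith⟩
  have h1 := h (A + E) (fun i _ j _ => hE1 i j) A (fun i _ j _ => hA1 i j) (by
    refine (dist_pi_lt_iff hδ).2 fun i => (dist_pi_lt_iff hδ).2 fun j => ?_
    rw [Real.dist_eq, Matrix.add_apply, add_sub_cancel_left]
    have := (hE i j).trans (min_le_left _ _)
    linarith)
  rw [Real.dist_eq, abs_lt] at h1
  have h2 : (2 * B)⁻¹ + (2 * B)⁻¹ = B⁻¹ := by field_simp; norm_num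
  have h3 : -(2 * B)⁻¹ < (A + E).det - A.det := h1.1
  linarith

/-- **Row B_SB.** -/
theorem rowBSB (hF : RowBOS) : RowBSB := by
  intro n hn ρ hρ b
  obtain ⟨R', hR'⟩ := hρ.bd.subset_closedBall (0 : V n)
  set R : ℝ := max R' 1 with hRdef
  have hR1 : 1 ≤ R := le_max_right _ _
  have hin : ∀ y, 0 ≤ ρ y → ‖y‖ ≤ R := by
    intro y hy
    have := hR' hy
    rw [mem_closedBall_zero_iff] at this
    exact this.trans (le_max_left _ _)
  let χ : ContDiffBump (0 : V n) := ⟨R, R + 1, by linarith, by linarith⟩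
  have hχs : ContDiff ℝ ∞ (χ : V n → ℝ) := χ.contDiff
  have hχ1 : ∀ y, 0 ≤ ρ y → χ y = 1 := fun y hy =>
    χ.one_of_mem_closedBall (by rw [mem_closedBall_zero_iff]; exact hin y hy)
  have hχt : tsupport (χ : V n → ℝ) ⊆ Metric.closedBall 0 (R + 1) := by
    rw [χ.tsupport_eq]
  have hχc := fun k => cl_compact hχs χ.hasCompactSupport k
  choose C hC hCχ using hχc
  -- the case `b 0 ≤ 0`
  rcases le_or_gt (b 0) 0 with hb0 | hb0
  · refine ⟨0, 1, one_pos, fun g₁ g₂ hg₁ _ r x₀ _ _ => ?_⟩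
    exfalso
    have h1 := (hg₁.2.1 0).diag_pos (i := (⟨0, by omega⟩ : Fin n))
    have h2 := hg₁.2.2.1 ⟨0, by omega⟩ ⟨0, by omega⟩ 0 le_rfl 0
    rw [norm_iteratedFDeriv_zero, Real.norm_eq_abs] at h2
    have h3 := le_abs_self (g₁ 0 ⟨0, by omega⟩ ⟨0, by omega⟩)
    linarith
  -- the bounds
  set Bm : ℕ → ℝ := fun l => 2 * ∑ j ∈ Finset.range (l + 1), |b j| with hBm
  have hBm0 : ∀ l, 0 ≤ Bm l := fun l => by simp only [hBm]; positivity
  have hBml : ∀ l l', l' ≤ l → |b l'| ≤ Bm l := by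
    intro l l' h
    have h1 : |b l'| ≤ ∑ j ∈ Finset.range (l + 1), |b j| :=
      Finset.single_le_sum (f := fun j => |b j|) (fun _ _ => abs_nonneg _)
        (Finset.mem_range.2 (by omega))
    have h2 : 0 ≤ ∑ j ∈ Finset.range (l + 1), |b j| := Finset.sum_nonneg fun _ _ => abs_nonneg _
    simp only [hBm]
    linarith
  have hBm2 : ∀ l, 2 * |b 0| ≤ Bm l := by
    intro l
    have h1 : |b 0| ≤ ∑ j ∈ Finset.range (l + 1), |b j| :=
      Finset.single_le_sum (f := fun j => |b j|) (fun _ _ => abs_nonneg _)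
        (Finset.mem_range.2 (by omega))
    simp only [hBm]
    linarith
  obtain ⟨k', ε, hε, hF⟩ := hF n hn ρ hρ (fun l => 2 * |b 0| + 2 ^ l * (C l * Bm l))
  obtain ⟨δ, hδ, hdet⟩ := det_near169 n hb0
  set B1 : ℝ := |b 0| + |b 1| + 1 with hB1
  have hB1p : 0 < B1 := by positivity
  have hM : 0 < B1 * (R + 1) := by positivity
  refine ⟨max k' 1, min 1 (min (δ / (B1 * (R + 1))) (ε / (2 * (B1 * (R + 1))))),
    by positivity, fun g₁ g₂ hg₁ hg₂ r x₀ hr hrr hSE => ?_⟩
  have hr1 : r ≤ 1 := hrr.trans (min_le_left _ _)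
  have hr2 : B1 * r * (R + 1) ≤ δ := by
    have := hrr.trans ((min_le_right _ _).trans (min_le_left _ _))
    rw [le_div_iff₀ hM] at this
    linarith
  have hr3 : 2 * (B1 * r * (R + 1)) ≤ ε := by
    have := hrr.trans ((min_le_right _ _).trans (min_le_right _ _))
    rw [le_div_iff₀ (by positivity)] at this
    linarith
  -- the cut-off metrics
  let gt : MF n → MF n := fun g y => g x₀ + χ y • (g (q r x₀ y) - g x₀)
  have happ : ∀ (g : MF n) (i j : Fin n), (fun y => gt g y i j) =
      fun y => g x₀ i j + χ y * (g (q r x₀ y) i j - g x₀ i j) := by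
    intro g i j
    funext y
    simp [gt]
  -- smallness of the difference
  have hsmall : ∀ g : MF n, MetB (max k' 1) b g → ∀ i j y,
      |χ y * (g (q r x₀ y) i j - g x₀ i j)| ≤ B1 * r * (R + 1) := by
    intro g hg i j y
    by_cases hy : ‖y‖ ≤ R + 1
    · have hcl : Cl (0 + 1) B1 (fun x => g x i j) := by
        intro l hl x
        have h1 := hg.2.2.1 i j l (hl.trans (le_max_right _ _)) x
        refine h1.trans ?_
        have h2 : l = 0 ∨ l = 1 := by omega
        rcases h2 with rfl | rfl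
        · have := le_abs_self (b 0); have := abs_nonneg (b 1); linarith
        · have := le_abs_self (b 1); have := abs_nonneg (b 0); linarith
      have h1 := near_q (hg.1 i j) hcl hr hr1 x₀ (R := R + 1) (by linarith) hy 0 le_rfl
      rw [norm_iteratedFDeriv_zero, Real.norm_eq_abs] at h1
      rw [abs_mul, abs_of_nonneg χ.nonneg]
      calc χ y * |g (q r x₀ y) i j - g x₀ i j| ≤ 1 * |g (q r x₀ y) i j - g x₀ i j| :=
            mul_le_mul_of_nonneg_right χ.le_one (abs_nonneg _)
        _ ≤ B1 * r * (R + 1) := by rw [one_mul]; exact h1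
    · have h1 : χ y = 0 := by
        refine χ.zero_of_le_dist ?_
        rw [dist_zero_right]
        exact (not_le.1 hy).le
      rw [h1, zero_mul, abs_zero]
      positivity
  have hmet : ∀ g : MF n, MetB (max k' 1) b g →
      MetB k' (fun l => 2 * |b 0| + 2 ^ l * (C l * Bm l)) (gt g) := by
    intro g hg
    refine ⟨fun i j => ?_, fun y => posDef_comb (hg.2.1 _) (hg.2.1 _) χ.nonneg χ.le_one,
      fun i j l hl y => ?_, fun y => ?_⟩
    · rw [happ]
      exact contDiff_const.add (hχs.mul (((hg.1 i j).comp (contDiff_q r x₀)).sub contDiff_const))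
    · rw [happ]
      have hh : ContDiff ℝ ∞ (fun y => g (q r x₀ y) i j - g x₀ i j) :=
        ((hg.1 i j).comp (contDiff_q r x₀)).sub contDiff_const
      have h1 := fun_iteratedFDeriv_add_apply (𝕜 := ℝ) (i := l) (x := y)
        (f := fun _ => g x₀ i j) (g := fun y => χ y * (g (q r x₀ y) i j - g x₀ i j))
        contDiffAt_const ((hχs.mul hh).contDiffAt.of_le (by exact_mod_cast le_top))
      rw [h1]
      refine (norm_add_le _ _).trans (add_le_add ?_ ?_)
      · rcases eq_or_ne l 0 with rfl | hl0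
        · rw [norm_iteratedFDeriv_zero]
          have h2 := hg.2.2.1 i j 0 (Nat.zero_le _) x₀
          rw [norm_iteratedFDeriv_zero] at h2
          have := le_abs_self (b 0)
          have := abs_nonneg (b 0)
          linarith
        · rw [iteratedFDeriv_const_of_ne hl0]
          simp
      · refine cl_cut (k := l) hχs hh (hCχ l) hχt (fun z _ l' hl' => ?_) (hBm0 l) l le_rfl y
        rcases eq_or_ne l' 0 with rfl | hl0
        · rw [norm_iteratedFDeriv_zero]
          have h2 := hg.2.2.1 i j 0 (Nat.zero_le _) x₀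
          have h3 := hg.2.2.1 i j 0 (Nat.zero_le _) (q r x₀ z)
          rw [norm_iteratedFDeriv_zero] at h2 h3
          refine (norm_sub_le _ _).trans ?_
          have := le_abs_self (b 0)
          have := hBm2 l
          linarith
        · have h4 : iteratedFDeriv ℝ l' (fun y => g (q r x₀ y) i j - g x₀ i j) z =
              iteratedFDeriv ℝ l' (fun y => g (q r x₀ y) i j) z := by
            have h5 := fun_iteratedFDeriv_sub_apply (𝕜 := ℝ) (i := l') (x := z)
              (f := fun y => g (q r x₀ y) i j) (g := fun _ => g x₀ i j)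
              (((hg.1 i j).comp (contDiff_q r x₀)).contDiffAt.of_le (by exact_mod_cast le_top))
              contDiffAt_const
            rw [h5, iteratedFDeriv_const_of_ne hl0]
            simp
          rw [h4]
          refine (ifd_q (hg.1 i j) hr x₀ l' z).trans ?_
          have h5 := hg.2.2.1 i j l' ((hl'.trans hl).trans (le_max_left _ _)) (q r x₀ z)
          have h6 : r ^ l' ≤ 1 := pow_le_one₀ hr.le hr1
          calc r ^ l' * ‖iteratedFDeriv ℝ l' (fun x => g x i j) (q r x₀ z)‖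
              ≤ 1 * ‖iteratedFDeriv ℝ l' (fun x => g x i j) (q r x₀ z)‖ :=
                mul_le_mul_of_nonneg_right h6 (norm_nonneg _)
            _ ≤ b l' := by rw [one_mul]; exact h5
            _ ≤ |b l'| := le_abs_self _
            _ ≤ Bm l := hBml l l' hl'
    · have h1 := hdet (g x₀) (χ y • (g (q r x₀ y) - g x₀)) (fun i j => ?_) (hg.2.2.2 x₀)
        (fun i j => ?_)
      · refine le_trans ?_ h1
        refine inv_anti₀ (by positivity) ?_
        have h2 : 0 ≤ 2 ^ 0 * (C 0 * Bm 0) := by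
          have := hBm0 0; have := (hC 0).le; positivity
        have := le_abs_self (b 0)
        linarith
      · have h2 := hg.2.2.1 i j 0 (Nat.zero_le _) x₀
        rwa [norm_iteratedFDeriv_zero, Real.norm_eq_abs] at h2
      · rw [Matrix.smul_apply, Matrix.sub_apply, smul_eq_mul]
        exact (hsmall g hg i j y).trans hr2
  have hosc : ∀ g : MF n, MetB (max k' 1) b g → Osc ε (gt g) := by
    intro g hg i j y z
    have h1 : gt g y i j = g x₀ i j + χ y * (g (q r x₀ y) i j - g x₀ i j) :=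
      congrFun (happ g i j) y
    have h2 : gt g z i j = g x₀ i j + χ z * (g (q r x₀ z) i j - g x₀ i j) :=
      congrFun (happ g i j) z
    rw [h1, h2, add_sub_add_left_eq_sub]
    refine (abs_sub _ _).trans ?_
    have h3 := hsmall g hg i j y
    have h4 := hsmall g hg i j z
    linarith
  have hon : ∀ g : MF n, ∀ y, 0 ≤ ρ y → gt g y = g (q r x₀ y) := by
    intro g y hy
    show g x₀ + χ y • (g (q r x₀ y) - g x₀) = _
    rw [hχ1 y hy, one_smul]; abel
  -- the data
  have hO : MeasurableSet (Om (scR ρ r x₀)) := by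
    have : IsOpen (Om (scR ρ r x₀)) := isOpen_lt continuous_const
      (hρ.sm.continuous.comp (contDiff_qi r x₀).continuous)
    exact this.measurableSet
  have hO' : MeasurableSet (Om ρ) := (isOpen_lt continuous_const hρ.sm.continuous).measurableSet
  have hOm : q r x₀ ⁻¹' Om (scR ρ r x₀) = Om ρ := by
    ext y
    show 0 < ρ (qi r x₀ (q r x₀ y)) ↔ 0 < ρ y
    rw [qi_q hr.ne']
  have hSE' : SE (Om ρ) (sg (gt g₁)) (sg (gt g₂)) := by
    have h1 := SE_q hr x₀ _ hO _ _ hSE
    rw [hOm] at h1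
    intro f hf
    have e : ∀ g : MF n, En (Om ρ) (sg (gt g)) f = En (Om ρ) (fun y => sg g (q r x₀ y)) f := by
      intro g
      refine En_congr hO' (fun y hy => ?_) f
      have hy' : 0 < ρ y := hy
      unfold sg
      rw [hon g y hy'.le]
    rw [e g₁, e g₂]
    exact h1 f hf
  obtain ⟨Φ, Ψ, hΦ, hΨ, h1, h2, h3, h4, h5, h6⟩ := hF (gt g₁) (gt g₂) (hmet g₁ hg₁) (hmet g₂ hg₂)
    (hosc g₁ hg₁) (hosc g₂ hg₂) hSE'
  refine ⟨fun x => q r x₀ (Φ (qi r x₀ x)), fun x => q r x₀ (Ψ (qi r x₀ x)),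
    (contDiff_q r x₀).comp (hΦ.comp (contDiff_qi r x₀)),
    (contDiff_q r x₀).comp (hΨ.comp (contDiff_qi r x₀)), ?_, ?_, ?_, ?_, ?_, ?_⟩
  · intro x
    show q r x₀ (Ψ (qi r x₀ (q r x₀ (Φ (qi r x₀ x))))) = x
    rw [qi_q hr.ne', h1, q_qi hr.ne']
  · intro x
    show q r x₀ (Φ (qi r x₀ (q r x₀ (Ψ (qi r x₀ x))))) = x
    rw [qi_q hr.ne', h2, q_qi hr.ne']
  · intro x hx
    show q r x₀ (Φ (qi r x₀ x)) = x
    rw [h3 (qi r x₀ x) hx, q_qi hr.ne']
  · intro x
    show 0 < ρ (qi r x₀ (q r x₀ (Φ (qi r x₀ x)))) ↔ 0 < ρ (qi r x₀ x)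
    rw [qi_q hr.ne', h4]
  · intro x
    rw [Jm_q hΦ hr.ne']
    exact h5 _
  · intro x hx
    rw [Jm_q hΦ hr.ne']
    have hx' : 0 ≤ ρ (qi r x₀ x) := hx
    have hΦx : 0 ≤ ρ (Φ (qi r x₀ x)) := by
      rcases hx'.lt_or_eq with h | h
      · exact ((h4 _).2 h).le
      · rw [h3 _ h.symm]; exact hx'
    have := h6 (qi r x₀ x) hx'
    rw [hon g₂ _ hx', hon g₁ _ hΦx, q_qi hr.ne'] at this
    exact this

end Vale.Agent.P088.HY.Bd
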